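import Vale.Agent.P240.R2.H487.N.M4

open Vale.Agent.P240 Vale.Agent.P240.K Vale.Agent.P240.Q Vale.Agent.P240.H195
open Vale.Agent.P240.R2.H487 (Other)
open Vale.Agent.P240.R2.H487.N
open Subgroup

universe u v

/-- Let `𝕜` be any field; `HQ 𝕜 p G` means that `𝒜ₚ(G)` is not `𝕜`-acyclic (so it is not contractible).
All groups are finite, and `F` is a finite field. There is no condition on subgroups and composition
factors of order prime to `p`. In (1)-(3) the prime is `2`.
(1) Let `O_2(G) = 1` and let `𝕜` have characteristic `3`. Then `HQ(G)`, so `𝒜₂(G)` is not contractible,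
if each nonabelian composition factor of `G` of even order is as in `AltLie`: an alternating group;
`PSL_n(F)` for all `n`; `PSp_{2m}(F)` for all `m ≥ 2`; `PSU_n(q)` for all `n ≥ 3`; `PΩ(Q)` for all
quadratic forms `Q` of dimension `n ≥ 5` with nondegenerate polar form; a group of exceptional type
(generated by elements that satisfy Chevalley's relations for the root system, or their form for the
twisted groups): `E₈(F)`, `E₇(F)`, `F₄(F)`, `G₂(F)`, `Sz(q)`, `²G₂(q)`, `²F₄(q)`, `³D₄(q)`; `E₆(q)` and
`²E₆(q)` in characteristic `2`, `3` and `5`, `E₆(q)` if `q` is not a square and `3` does not divide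
`q - 1`, and `²E₆(q)` if `3` does not divide `q + 1`; or a group as in `OrdFree 2` (by the ATLAS most of
the sporadic groups). The factors may also satisfy `Other`: an alternating group, `RigidLie 2`,
`EuFree 2`, or `AutFree 2 r` for a prime `r`, if `r = 5`, or `r` is the characteristic of `𝕜`, or `L`
satisfies `FewAut 2`; or `L` satisfies `FewAut 2` and all almost simple groups with socle `L` satisfy
`HQ`.
(2) The same for an arbitrary field `𝕜` and an arbitrary prime `l` in place of `5`, for all `E₆(q)` and
`²E₆(q)`, if in some cases the characteristic of `F` is `l` or the characteristic of `𝕜`: for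
`PSU_n(q)`, if `q = 3` and `n` is divisible by `4`, or `q = 5` and `n` is even; for `PΩ(Q)`, if `|F|` is
`3`, `5`, `9` or `25` and `n` is even; for `PSL_n(F)`, if `|F|` is `3`, `5`, `9` or `25` and `n ≥ 4` is a
power of `2` (not if `l = 2`, `|F| = 3` and `n ≠ 8`); for `E₆(q)`, if `q` is odd, and `q` is a square or
`3` divides `q - 1`; for `²E₆(q)`, if `q` is odd and `3` divides `q + 1`.
(3) In (1) and (2) it is enough that the components of `C_G(N) / (N ∩ C_G(N))` are as required, where
`N` is the largest normal subgroup of odd order of `G`.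
(4) Elimination, for an arbitrary prime `p` and an arbitrary field `𝕜`. Let `D` be a
conjugation-stable set of subgroups of `G` that commute with each other; suppose that each `L ∈ D` is a
nonabelian simple group of order divisible by `p` and satisfies `ElimLie p`. For `p = 2` these are the
alternating groups and the groups of Lie type in (1), with the following restrictions: `PSL_n(F)`, where
`|F|` is even, or `n = 2`, or `n ≥ 4` is a power of `2` and `|F|` is not `3`, `5`, `9` or `25`, or `n` is
prime to `|F| - 1` and `|F|` is not a square; `PSU_n(q)`, not if `q = 3` and `n` is even, or `q = 5` and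
`n` is divisible by `2` or `3`; `PΩ(Q)`, `E₆(q)` and `²E₆(q)` without the restricted groups of (2). For
odd `p` they are the groups of (6) (without `OrdFree` and `Other`), without `PSU_n(2)` and `PSU_n(8)`;
without `PSp_{2m}(F)` and `PΩ(Q)` if `|F|` is even; without `PΩ(Q)` for `n = 8`, `p = 3`, if the
characteristic is not `3`; and, if `p = 3` and the characteristic is not `3`, without `E₆(q)` and
`²E₆(q)`, where `q` is a cube and `3` divides `q - 1` or `q + 1`, respectively. Then `HQ(C_G(D))` implies
`HQ(G)`.
(5) Minimal counterexamples, for an arbitrary prime `p` and an arbitrary field `𝕜`. Suppose that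
`O_p(G) = 1` and `HQ(G)` fails, but `HQ(H)` holds for all groups `H` of smaller order with
`O_p(H) = 1`. Then no simple component of `G` satisfies `ElimLie p`.
(6) Odd primes `p`, an arbitrary field `𝕜`. Let `O_p(G) = 1`. Then `HQ(G)` if each nonabelian
composition factor of `G` of order divisible by `p` is as in `AltLieOdd`: an alternating group,
`PSL_n(F)`, `PSp_{2m}(F)`, `PSU_n(q)`, `PΩ(Q)`, or a group of exceptional type, but if `p = 3` and the
characteristic of `F` is not `2` or `3`, then not `E₆(q)`, where `3` divides `q - 1` and `q` is a cube,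
and not `²E₆(q)`, where `3` divides `q + 1` and `q` is a cube; or a group as in `OrdFree p`; or the Sylow
`p`-subgroups of `Aut(L)` are cyclic; or if it satisfies `Other`, with `l = 2`. -/
theorem Vale.Agent.Results.P240.AClassical.result {𝕜 : Type v} [Field 𝕜] :
    ((3 : 𝕜) = 0 → ∀ (G : Type u) [Group G] [Finite G], OpTrivial 2 G →
      (Factors 2 G fun L _ => AltLie L ∨ Other 𝕜 2 5 L) → HQ 𝕜 2 G) ∧
    (∀ (G : Type u) [Group G] [Finite G], OpTrivial 2 G → ∀ l : ℕ, l.Prime →
      (Factors 2 G fun L _ => AltLieAt 𝕜 l L ∨ Other 𝕜 2 l L) → HQ 𝕜 2 G) ∧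
    (∀ (G : Type u) [Group G] [Finite G], OpTrivial 2 G → ∀ (N : Subgroup G) [N.Normal] (l : ℕ),
      l.Prime → (RedComp 2 N fun L _ => AltLieAt 𝕜 l L ∨ (l = 5 ∧ (3 : 𝕜) = 0 ∧ AltLie L) ∨
        Other 𝕜 2 l L) → HQ 𝕜 2 G) ∧
    (∀ (G : Type u) [Group G] [Finite G] (p : ℕ), p.Prime → ∀ D : Set (Subgroup G), Family D →
      (∀ L ∈ D, SimpleDiv p L ∧ ElimLie p L) → HQ 𝕜 p (CenFam D) → HQ 𝕜 p G) ∧
    (∀ (G : Type u) [Group G] [Finite G] (p : ℕ), p.Prime → MinCounter 𝕜 p G →
      ∀ L ∈ Q.Comp G, ¬ ElimLie p L) ∧
    ∀ (G : Type u) [Group G] [Finite G] (p : ℕ), p.Prime → p ≠ 2 → OpTrivial p G →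
      (Factors p G fun L _ => AltLieOdd p L ∨ Other 𝕜 p 2 L) → HQ 𝕜 p G :=
  have : Fact (Nat.Prime 2) := ⟨Nat.prime_two⟩
  ⟨fun h3 _ _ _ hO h => clas_three h3 hO h,
    fun _ _ _ hO _ hl h => clas_factor hl hO h,
    fun _ _ _ hO N _ _ hl h => clas_comp hl hO N h,
    fun _ _ _ _ hp _ hD h hC => lie_family hp hD h hC,
    fun _ _ _ _ hp h => lie_minimal hp h,
    fun _ _ _ _ hp hp2 hO h => odd_factor hp hp2 hO h⟩
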