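import Vale.Agent.P240.R2.H63.AsU

open Vale.Agent.P240 Vale.Agent.P240.K Vale.Agent.P240.H195
open Vale.Agent.P240.R2.AS Vale.Agent.P240.R2.H275 Vale.Agent.P240.R2.H63 Vale.Agent.P240.R2.H487

universe u v w

/-- Let `p` be a prime and `𝕜` any field. `QuillenDim 𝕜 p H` is the Quillen dimension property of `H`
with coefficients in `𝕜`, and `HQ 𝕜 p G` means that `𝒜ₚ(G)` is not `𝕜`-acyclic. `Herm K q` means that
`K` is a field with `q²` elements, `q ≥ 3`, with `star x = x ^ q`; `GU K n` is the group of unitary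
`n × n` matrices over `K`, `PGU K n` its quotient by the centre, `PSU K n ≤ PGU K n` the image of the
matrices of determinant `1`, and `PGamU K n` the extension of `PGU K n` by the group `SA K` of field
automorphisms commuting with `star`. `IsPGU K n S` means that `Γ` is isomorphic to `PGU K n`, with `S`
corresponding to `PSU K n`; `IsPGamU K n S B` means that `Γ` is isomorphic to `PGamU K n`, with `S`
and `B` corresponding to `PSU K n` and `PGU K n`.
(1) The Quillen dimension property of the elementary `p`-extensions of the unitary groups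
(conjectured by Aschbacher and Smith, 1993): let `L ≅ PSU_n(q)`, `n ≥ 3`, `q ≥ 3`, `p ∣ q + 1`,
`(p, q) ≠ (3, 8)`; if `p = 2`, suppose that `n` is odd and `q ≥ 7` (`PSUFac`). Let `E` be a subgroup of
`Aut(L)` that is an elementary abelian `p`-group or trivial. Then the group `Inn(L) E` has the Quillen
dimension property at `p` (`ExtQD`).
(2) The same in `PΓU_n(q)`, for `n ≥ 2`; here, for `p = 3` and `q = 8`, no field automorphisms are
allowed.
(3) All groups `H` between `PSU_n(q)` and `PGU_n(q)`, `n ≥ 2`, `q ≥ 3`, `p ∣ q + 1`; if `p = 2`, then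
`n ≠ 2, 4`.
(4) The analogue for orthogonal groups, `p = 2`: if `K` is a finite field with `|K| ≥ 11` odd, with
trivial `star` (so that `GU K n` is the orthogonal group of the form `∑ xᵢ²`), and `n` is odd, then
each group `H` that contains the commutator subgroup of `PGU K n` has the property.
(5) Consequences for Quillen's conjecture; here the characteristic of `𝕜` is `p`. Let `D` be a
conjugation-stable set of pairwise commuting nonabelian simple subgroups of the finite group `G`, of
orders divisible by `p`, each isomorphic to a group `PSU_n(q)` as in (1). If `𝒜ₚ(C_G(D))` is not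
`𝕜`-acyclic, then `𝒜ₚ(G)` is not `𝕜`-acyclic.
(6) Let the characteristic of `𝕜` be `p`, let `O_p(G) = 1`, and suppose that each nonabelian
composition factor of `G` of order divisible by `p` is an alternating group, or `PSU_n(q)` as in (1),
or (for `p ≠ 2`) a group `PSL_n(F)`, or (for `p = 2`) a group `PSL_n(F)` as in `LinTwo`, for one prime
`l` (`UFactor`). Then `𝒜ₚ(G)` is not `𝕜`-acyclic.
(7) For every prime power `q ≥ 3` there is a field `K` with `Herm K q`. -/
theorem Vale.Agent.Results.P240.AUnitary.result {𝕜 : Type v} [Field 𝕜] {p : ℕ} [Fact p.Prime] :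
    (∀ (L : Type u) [Group L], PSUFac p L → ExtQD 𝕜 p L) ∧
    (∀ (K : Type w) [Field K] [Fintype K] [StarRing K] (q n : ℕ) (Γ : Type u) [Group Γ]
      (S B E : Subgroup Γ), Herm K q → UCase p q n → 2 ≤ n → IsPGamU K n S B → ExpP p E →
      (p = 3 ∧ q = 8 → E ≤ B) → QuillenDim 𝕜 p ↥(S ⊔ E)) ∧
    (∀ (K : Type w) [Field K] [Fintype K] [StarRing K] (q n : ℕ) (Γ : Type u) [Group Γ]
      (S H : Subgroup Γ), Herm K q → p ∣ q + 1 → 2 ≤ n → (p = 2 → n ≠ 2 ∧ n ≠ 4) → IsPGU K n S →
      S ≤ H → QuillenDim 𝕜 p H) ∧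
    (p = 2 → ∀ (K : Type w) [Field K] [Fintype K] [StarRing K] (n : ℕ) (Γ : Type u) [Group Γ]
      (S H : Subgroup Γ), (∀ x : K, star x = x) → Nat.card K % 2 = 1 → 11 ≤ Nat.card K →
      n % 2 = 1 → IsPGU K n S → commutator Γ ≤ H → QuillenDim 𝕜 p H) ∧
    ((p : 𝕜) = 0 →
      (∀ (G : Type u) [Group G] [Finite G] (D : Set (Subgroup G)), CommFam p D →
        (∀ L ∈ D, IsSimpleGroup L ∧ PSUFac p L) → HQ 𝕜 p (CenAll D) → HQ 𝕜 p G) ∧
      ∀ (G : Type u) [Group G] [Finite G], OpTrivial p G → ∀ l : ℕ, l.Prime →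
        (∀ (L : Type u) [Group L], CompFactor G L → p ∣ Nat.card L → UFactor 𝕜 p l L) →
        HQ 𝕜 p G) ∧
    ∀ q : ℕ, IsPrimePow q → 3 ≤ q →
      ∃ (K : Type) (_ : Field K) (_ : Fintype K) (_ : StarRing K), Herm K q :=
  ⟨fun _ _ h => As.part1 h,
    fun K _ _ _ q n _ _ _ _ E hH hU hn h hE h38 => As.part2' K q n hH hU hn h E hE h38,
    fun K _ _ _ q n _ _ _ H hH hpq hn h2 h hS => As.part3' K q n hH hpq hn h2 h H hS,
    fun hp2 K _ _ _ n _ _ _ H hs hK hK' hn h hH => As.part4' hp2 K hs hK hK' n hn h H hH,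
    fun hk => ⟨fun G _ _ D hD h hC => As.part5 hk G D hD h hC,
      fun G _ _ hO l hl h => As.part6 hk G hO l hl h⟩,
    fun q h1 h2 => As.part7 q h1 h2⟩
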