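import Vale.Agent.P240.R2.H63.StMain

open Vale.Agent.P240 Vale.Agent.P240.K Vale.Agent.P240.Q Vale.Agent.P240.H195
open Vale.Agent.P240.R2.H275 Vale.Agent.P240.R2.H487 Vale.Agent.P240.R2.H63
open Subgroup

universe u v

/-- Let `p` be a prime and `𝕜` any field; `HQ 𝕜` means that `𝒜ₚ` is not `𝕜`-acyclic (so it is not
contractible), and `QuillenDim 𝕜 p H` is the Quillen dimension property of `H` with coefficients in
`𝕜`. All groups are finite; no condition is imposed on `p'`-subgroups or on composition factors of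
order prime to `p`.
(1) `QuillenDim 𝕜 p H` holds if some elementary abelian `p`-subgroup of `H` of largest order acts
faithfully on a `p'`-subgroup of `H` that it normalizes.
(2) If `O_p(G) = 1` and the order of each nonabelian composition factor of `G` is prime to `p` (that
is, `G` is `p`-solvable), then `QuillenDim 𝕜 p G`.
(3) Let `C` and `A` be subgroups of `G` that commute with each other, `A` elementary abelian or
trivial, `A ∩ C = 1`, such that every elementary abelian `p`-subgroup `E ≥ A` with `E ∩ C = 1`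
normalizes and acts faithfully on a `p'`-subgroup commuting with `C_C(E)` (`Linked`). Then `HQ(C)`
implies `HQ(G)`.
(4) Let `N` be a normal `p'`-subgroup of `G` and `Q = C_G(N) / (N ∩ C_G(N))`. Then `HQ(Q)` implies
`HQ(G)`. If `O_p(G) = 1` and `N = O_{p'}(G)`, then `Q` has no nontrivial normal `p`-subgroup and no
nontrivial normal `p'`-subgroup, and `HQ(G)` holds if `Q` is `Manageable`: for one prime `l` the
components of `Q` satisfy `Good`; or `Q` satisfies `Separated` or `Labelled`; or there is a
conjugation-stable set `D` of subgroups of `Q` such that all `L ∈ D` satisfy the local condition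
`Local`, or, for one prime `l`, each `L ∈ D` satisfies `Adic` or `FreeSub` for `l`, while the other
components of `Q` satisfy `Elim`.
(5) So the homological form of the conjecture for the prime `p`, over `𝕜`, is equivalent to the same
statement for the groups with `O_p(G) = O_{p'}(G) = 1`.
(6) Let `D` be a conjugation-stable set of subgroups of `G` with trivial centres that commute with
each other and have orders divisible by `p`. Suppose that each `L ∈ D` satisfies `Elim`: it satisfies
`LocN` (it has a nontrivial elementary abelian `p`-subgroup `A` such that every elementary abelian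
`p`-subgroup `E ≥ A` of `N_G(L)` normalizes a `p'`-subgroup `W` of `L` for which the elements of `E`
centralizing `W` centralize `L`), or `Removable`, or `RigidLie p`, or, if `𝕜` has characteristic `p`,
`JumpSub`, or, if `p = 2`, is isomorphic to `PSL_n(F)` where `n ≥ 4` is a power of `2` and `|F|` is odd
and not `3`, `5`, `9` or `25` (and is simple). Then `HQ(C_G(D))` implies `HQ(G)`.
(7) Let `O_p(G) = 1` and `l` a prime. Then `HQ(G)` holds if each nonabelian composition factor of `G`
of order divisible by `p` satisfies `GoodFac`.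
(8) In particular, let `p = 2`, `O_2(G) = 1`, and suppose that each nonabelian composition factor of `G`
of even order is an alternating group or a group `PSL_n(F)`, for any `n` and any finite field `F`. If
`𝕜` has characteristic `3`, then `HQ(G)` holds; so `𝒜₂(G)` is not contractible. For an arbitrary field
`𝕜`, `HQ(G)` holds if the groups `PSL_n(F)` are as in `LinTwo`, for one prime `l`: if `n ≥ 4` is a power
of `2` and `|F|` is `3`, `5`, `9` or `25`, then the characteristic of `F` is `l` or the characteristic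
of `𝕜`, or `l = 2`, `|F| = 3` and `n ≠ 8`.
(9) Minimal counterexamples. Suppose that `O_p(G) = 1` and `HQ(G)` fails, but `HQ(H)` holds for all
groups `H` of smaller order with `O_p(H) = 1`. Then `O_{p'}(G) = 1`, no component of `G` satisfies
`Elim`, and for every prime `l` some component does not satisfy `Good`. -/
theorem Vale.Agent.Results.P240.CoprimeRadical.result
    {𝕜 : Type v} [Field 𝕜] {p : ℕ} [Fact p.Prime] :
    (∀ (H : Type u) [Group H] [Finite H] (E Y : Subgroup H), MaxRank p E → FaithfulOn p E Y →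
      QuillenDim 𝕜 p H) ∧
    (∀ (G : Type u) [Group G] [Finite G], OpTrivial p G →
      (∀ (L : Type u) [Group L], CompFactor G L → ¬ p ∣ Nat.card L) → QuillenDim 𝕜 p G) ∧
    (∀ (G : Type u) [Group G] [Finite G] (C A : Subgroup G), Linked p C A → K.HQ 𝕜 p C →
      K.HQ 𝕜 p G) ∧
    (∀ (G : Type u) [Group G] [Finite G] (N : Subgroup G) [N.Normal], ¬ p ∣ Nat.card N →
      (K.HQ 𝕜 p (Reduced N) → K.HQ 𝕜 p G) ∧
      (OpTrivial p G → Largest p N → OpTrivial p (Reduced N) ∧ OpPrimeTrivial p (Reduced N) ∧
        (Manageable 𝕜 p (Reduced N) → K.HQ 𝕜 p G))) ∧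
    ((∀ (G : Type u) [Group G] [Finite G], OpTrivial p G → K.HQ 𝕜 p G) ↔
      ∀ (G : Type u) [Group G] [Finite G], OpTrivial p G → OpPrimeTrivial p G → K.HQ 𝕜 p G) ∧
    (∀ (G : Type u) [Group G] [Finite G] (D : Set (Subgroup G)), CommFam p D →
      (∀ L ∈ D, Elim 𝕜 p L ∧ (PauliPSL L → IsSimpleGroup L)) →
      K.HQ 𝕜 p (CenAll D) → K.HQ 𝕜 p G) ∧
    (∀ (G : Type u) [Group G] [Finite G], OpTrivial p G → ∀ l : ℕ, l.Prime →
      (∀ (L : Type u) [Group L], CompFactor G L → p ∣ Nat.card L → GoodFac 𝕜 p l L) →
      K.HQ 𝕜 p G) ∧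
    (p = 2 → ∀ (G : Type u) [Group G] [Finite G], OpTrivial p G →
      ((3 : 𝕜) = 0 → (∀ (L : Type u) [Group L], CompFactor G L → p ∣ Nat.card L →
        (∃ n : ℕ, 5 ≤ n ∧ Nonempty (L ≃* alternatingGroup (Fin n))) ∨
        ∃ (n : ℕ) (F : Type) (_ : Field F) (_ : Finite F),
          Nonempty (L ≃* Matrix.ProjectiveSpecialLinearGroup (Fin n) F)) → K.HQ 𝕜 p G) ∧
      ∀ l : ℕ, l.Prime → (∀ (L : Type u) [Group L], CompFactor G L → p ∣ Nat.card L →
        (∃ n : ℕ, 5 ≤ n ∧ Nonempty (L ≃* alternatingGroup (Fin n))) ∨ LinTwo 𝕜 l L) →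
      K.HQ 𝕜 p G) ∧
    ∀ (G : Type u) [Group G] [Finite G], OpTrivial p G → ¬ K.HQ 𝕜 p G →
      (∀ (H : Type u) [Group H] [Finite H], Nat.card H < Nat.card G → OpTrivial p H →
        K.HQ 𝕜 p H) →
      OpPrimeTrivial p G ∧ (∀ L ∈ Q.Comp G, ¬ Elim 𝕜 p L) ∧
        ∀ l : ℕ, l.Prime → ∃ L ∈ Q.Comp G, ¬ Good 𝕜 p l L :=
  ⟨fun _ _ _ _ _ hE hY => quillenDim_coprime hE.1 hE.2 hY.1 hY.2.1 hY.2.2,
    fun _ _ _ hO h => quillenDim_psolvable hO h,
    fun _ _ _ _ _ h hC => st_linked h hC,
    fun _ _ _ N _ hN => ⟨reduce_all' N hN,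
      fun hO hmax => ⟨reduced_op hO N hN, reduced_op' N hN hmax,
        fun h => reduce_all' N hN (st_manageable (reduced_op hO N hN) (reduced_op' N hN hmax) h)⟩⟩,
    ⟨fun h G _ _ hO _ => h G hO, fun h _ _ _ hO => st_reduce h hO⟩,
    fun _ _ _ _ hD h hC => st_family hD h hC,
    fun _ _ _ hO _ hl h => st_factor hl hO h,
    fun h2 _ _ _ hO => by
      subst h2
      exact ⟨fun h3 h => lin_three h3 hO h, fun _ hl h => lin_two hl hO h⟩,
    fun _ _ _ hO h hmin => st_minimal hO h hmin⟩
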