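import Vale.Agent.P240.R2.H487.Cond

open Vale.Agent.P240 Vale.Agent.P240.K Vale.Agent.P240.Q Vale.Agent.P240.H195
open Vale.Agent.P240.R2.H487 Subgroup

universe u v

/-- Let `p` be a prime and `𝕜` any field; `HQ 𝕜` means that `𝒜ₚ` is not `𝕜`-acyclic (so it is not
contractible). All groups are finite.
(1) Heredity. Suppose that `𝕜` has characteristic `p`. If `N` is a subnormal subgroup of `G`, then
`HQ(G)` implies `HQ(N)`.
(2) If `N` is a normal `p'`-subgroup of `G` and the order of `N` is not zero in `𝕜`, then `HQ(G ⧸ N)`
implies `HQ(G)`. No condition on the composition factors of `N`.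
(3) The main theorem. Suppose that `O_p(G) = O_{p'}(G) = 1`. Then `HQ(G)` holds if the components
satisfy `Separated` or `Labelled`. `Separated` means: `𝕜` has characteristic `p`; there is a
conjugation-stable set `S` of components satisfying `Removable` or `RigidLie p` such that, in the
centralizer `K` of the members of `S`, all products of elements of order `p` are `p`-elements modulo
the product of the components outside `S`; and the components outside `S` satisfy `AlmostSimpleHQ`.
`Labelled` means: the components outside a set `S` as before are grouped into conjugation-stable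
classes `D_q`, `q` in a set of primes, such that `GoodFor p q L` for `L ∈ D_q`; for `q ∈ B` the
centralizer `N_q` of all components outside `D_q` satisfies `FewOuter` (at most two subgroups of order
`p` of `G / N_q C_G(N_q)` come from outer elements of `G`); and either at most one class `D_q` has
`q ∉ B`, or `𝕜` has characteristic `p` and, in the centralizer of all components that are in `S` or in
`D_q` with `q ∈ B`, all products of elements of order `p` are `p`-elements modulo the product of the
subgroups `N_q`, `q ∉ B`. There is no restriction on the number of classes, that is, on the number of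
different characteristics of the components.
(4) The same if only `O_p(G) = 1`: let `N = O_{p'}(G)` satisfy `SolvableFaithful`, or let each
nonabelian composition factor of `N` satisfy `AutFree p r` for some prime `r` (for example `N`
solvable); if `C_G(N) / (N ∩ C_G(N))` satisfies `Separated` or `Labelled`, then `HQ(G)`.
(5) A nonabelian simple group `L` satisfies `GoodFor p l L` for some prime `l` if it is alternating,
or isomorphic to `PSL_n(F)` for any `n` and any finite field `F`, or has a split BN-pair of some
characteristic `r ≠ p`, or a rigid one of characteristic `p`.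
(6) If `L` is nonabelian simple of order divisible by `p` and satisfies `GoodFor p l L` for a prime
`l`, then all groups `A` with `Inn(L) ≤ A ≤ Aut(L)` satisfy `HQ`. -/
theorem Vale.Agent.Results.P240.SubnormalHeredity.result
    {𝕜 : Type v} [Field 𝕜] {p : ℕ} [Fact p.Prime] :
    ((p : 𝕜) = 0 → ∀ (G : Type u) [Group G] [Finite G] (N : Subgroup G), N.IsSubnormal →
      K.HQ 𝕜 p G → K.HQ 𝕜 p N) ∧
    (∀ (G : Type u) [Group G] [Finite G] (N : Subgroup G) [N.Normal], ¬ p ∣ Nat.card N →
      ((Nat.card N : ℕ) : 𝕜) ≠ 0 → K.HQ 𝕜 p (G ⧸ N) → K.HQ 𝕜 p G) ∧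
    (∀ (G : Type u) [Group G] [Finite G], OpTrivial p G → OpPrimeTrivial p G →
      Separated 𝕜 p G ∨ Labelled 𝕜 p G → K.HQ 𝕜 p G) ∧
    (∀ (G : Type u) [Group G] [Finite G], OpTrivial p G →
      ∀ (N : Subgroup G) [N.Normal], ¬ p ∣ Nat.card N →
        (∀ X : Subgroup G, X.Normal → ¬ p ∣ Nat.card X → X ≤ N) →
        (SolvableFaithful p N ∨
          ∀ (L : Type u) [Group L], CompFactor N L → ∃ r : ℕ, r.Prime ∧ AutFree p r L) →
        Separated 𝕜 p (Reduced N) ∨ Labelled 𝕜 p (Reduced N) → K.HQ 𝕜 p G) ∧
    ∀ (L : Type u) [Group L] [Finite L], IsSimpleGroup L → (∃ x y : L, x * y ≠ y * x) →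
      (KnownType p L → ∃ l : ℕ, l.Prime ∧ GoodFor p l L) ∧
      ∀ l : ℕ, l.Prime → GoodFor p l L → p ∣ Nat.card L → ∀ A : Subgroup (MulAut L),
        (∀ x : L, MulAut.conj x ∈ A) → K.HQ 𝕜 p A :=
  ⟨fun hchar _ _ _ _ hN h => HQ_subnormal hchar hN h,
    fun _ _ _ _ _ hN hN' h => HQ_quot hN hN' h,
    fun _ _ _ hO hO' h => h.elim (comp_separated hO hO') (comp_labelled hO hO'),
    fun _ _ _ hO N _ hN hmax hsol h => reduce_all N hN (hsol.elim id fun h => solvableFaithful_of hN h)
      (h.elim (comp_separated (reduced_op hO N hN) (reduced_op' N hN hmax))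
        (comp_labelled (reduced_op hO N hN) (reduced_op' N hN hmax))),
    fun _ _ _ hs hn => ⟨fun h => h.goodFor hs hn, fun _ hl h hd A hA => h.almost hl hs hn hd A hA⟩⟩
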